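import Vale.Agent.Lib.P154B.Fast3

namespace Vale.Agent.Lib.P154P.Tab.BS

open Vale.Agent.Lib.P154B

def mkR (t L : ℕ) (hs : List ℕ) : Rec := ⟨t, L, hs⟩

def qsD : List ℕ := [1110746889,4581830921,9450026276,12993786131,13399841947,11054869606,7600222854,4478702752,2309331106,1058443423,436607911,163727966,56281487,17858548,5261892,1447019,373059,90520,20743]

end Vale.Agent.Lib.P154P.Tab.BS
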