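import Vale.Agent.Lib.P154P.Tab.BS.P2
import Vale.Agent.Lib.P154P.Tab.BS.St
import Vale.Agent.Lib.P154P.BoxCert

set_option linter.defProp false

namespace Vale.Agent.Lib.P154P.Tab.BS

open Vale.Agent.Lib.P154B Vale.Agent.Lib.P154P

def last_g : Nat.ble 1085070861964380160 (lp2.T.testSum aR (lp2.parentR rows2 s_139).1 (lp2.parentR rows2 s_139).2) = true := by decide +kernel

end Vale.Agent.Lib.P154P.Tab.BS
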