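import Vale.Agent.Lib.P154P.Tab.BS.P0
import Vale.Agent.Lib.P154P.Tab.BS.St

set_option linter.defProp false

namespace Vale.Agent.Lib.P154P.Tab.BS

open Vale.Agent.Lib.P154B

def run_0 : Nat.beq (nextF tr0.T.par tr0.T.S tr0.T.Q tr0_gl tr0_ge tr0.T.hv 0 0) s_0 = true := by decide +kernel

end Vale.Agent.Lib.P154P.Tab.BS
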