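import Vale.Agent.Lib.P154P.Tab.BS.P0
import Vale.Agent.Lib.P154P.Tab.BS.St

set_option linter.defProp false

namespace Vale.Agent.Lib.P154P.Tab.BS

open Vale.Agent.Lib.P154B

def run_18 : Nat.beq (iterH lp0 lp0_gl lp0_ge rows0 6 s_12) s_18 = true := by decide +kernel

end Vale.Agent.Lib.P154P.Tab.BS
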