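import Vale.Agent.Lib.P154P.Tab.BS.P2
import Vale.Agent.Lib.P154P.Tab.BS.St

set_option linter.defProp false

namespace Vale.Agent.Lib.P154P.Tab.BS

open Vale.Agent.Lib.P154B

def run_86 : Nat.beq (iterH lp2 lp2_gl lp2_ge rows2 6 s_80) s_86 = true := by decide +kernel

end Vale.Agent.Lib.P154P.Tab.BS
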