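import Vale.Agent.Lib.P154P.Tab.BS.C0
import Vale.Agent.Lib.P154P.Tab.BS.C1
import Vale.Agent.Lib.P154P.Tab.BS.C2
import Vale.Agent.Lib.P154P.Tab.BS.R0
import Vale.Agent.Lib.P154P.Tab.BS.R6
import Vale.Agent.Lib.P154P.Tab.BS.R12
import Vale.Agent.Lib.P154P.Tab.BS.R18
import Vale.Agent.Lib.P154P.Tab.BS.R24
import Vale.Agent.Lib.P154P.Tab.BS.R30
import Vale.Agent.Lib.P154P.Tab.BS.R36
import Vale.Agent.Lib.P154P.Tab.BS.R39
import Vale.Agent.Lib.P154P.Tab.BS.R40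
import Vale.Agent.Lib.P154P.Tab.BS.R46
import Vale.Agent.Lib.P154P.Tab.BS.R52
import Vale.Agent.Lib.P154P.Tab.BS.R58
import Vale.Agent.Lib.P154P.Tab.BS.R64
import Vale.Agent.Lib.P154P.Tab.BS.R70
import Vale.Agent.Lib.P154P.Tab.BS.R76
import Vale.Agent.Lib.P154P.Tab.BS.R79
import Vale.Agent.Lib.P154P.Tab.BS.R80
import Vale.Agent.Lib.P154P.Tab.BS.R86
import Vale.Agent.Lib.P154P.Tab.BS.R92
import Vale.Agent.Lib.P154P.Tab.BS.R98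
import Vale.Agent.Lib.P154P.Tab.BS.R104
import Vale.Agent.Lib.P154P.Tab.BS.R110
import Vale.Agent.Lib.P154P.Tab.BS.R116
import Vale.Agent.Lib.P154P.Tab.BS.R122
import Vale.Agent.Lib.P154P.Tab.BS.R128
import Vale.Agent.Lib.P154P.Tab.BS.R134
import Vale.Agent.Lib.P154P.Tab.BS.R139
import Vale.Agent.Lib.P154P.Tab.BS.Last

namespace Vale.Agent.Lib.P154P.Tab.BS

open Vale.Agent.Lib.P154B Vale.Agent.Lib.P154P Vale.Agent.Lib.P154C Vale.Agent.Lib.P154 Vale.Agent.Lib.P154.Mellin Vale.Agent.Lib.P154Q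

noncomputable section

theorem lp0_loop : lp0.IsLoop := ⟨rfl, rfl, rfl, rfl⟩

theorem lp1_loop : lp1.IsLoop := ⟨rfl, rfl, rfl, rfl⟩

theorem lp2_loop : lp2.IsLoop := ⟨rfl, rfl, rfl, rfl⟩

section
variable {A : ℕ → (Vec → ℝ) → ℝ} {μ : ℝ} (hF : FunSeq A μ 36 qsD) (hμ : μ ≤ ((991 : ℕ) : ℝ) / ((2000 : ℕ) : ℝ))
include hF hμ

theorem lv_0 : StOK lp0.T.Lp.ρ lp0.T.par.r lp0.T.par.P lp0.S₀ lp0.ks₀ s_0 (chanF μ (A 0)) := by
  have h := Phase.run_start (ph := tr0) tr0_check hF (hm_of rfl rfl hμ)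
  rw [start_of_beq (ph := tr0) rfl rfl tr0_g1 tr0_g2 run_0] at h
  exact h

theorem lv_6 : StOK lp0.T.Lp.ρ lp0.T.par.r lp0.T.par.P lp0.S₀ lp0.ks₀ s_6 (chanF μ (A 6)) := by
  have h := Phase.run_loop (ph := lp0) lp0_check lp0_chk2 lp0_loop hF (Phase.rho_pos lp0_check) (hm_of rfl rfl hμ) 6 (lv_0 hF hμ)
  rw [run_of_beqH (ph := lp0) rfl rfl lp0_g1 lp0_g2 rows0_ok run_6] at h
  exact h

theorem lv_12 : StOK lp0.T.Lp.ρ lp0.T.par.r lp0.T.par.P lp0.S₀ lp0.ks₀ s_12 (chanF μ (A 12)) := by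
  have h := Phase.run_loop (ph := lp0) lp0_check lp0_chk2 lp0_loop hF (Phase.rho_pos lp0_check) (hm_of rfl rfl hμ) 6 (lv_6 hF hμ)
  rw [run_of_beqH (ph := lp0) rfl rfl lp0_g1 lp0_g2 rows0_ok run_12] at h
  exact h

theorem lv_18 : StOK lp0.T.Lp.ρ lp0.T.par.r lp0.T.par.P lp0.S₀ lp0.ks₀ s_18 (chanF μ (A 18)) := by
  have h := Phase.run_loop (ph := lp0) lp0_check lp0_chk2 lp0_loop hF (Phase.rho_pos lp0_check) (hm_of rfl rfl hμ) 6 (lv_12 hF hμ)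
  rw [run_of_beqH (ph := lp0) rfl rfl lp0_g1 lp0_g2 rows0_ok run_18] at h
  exact h

theorem lv_24 : StOK lp0.T.Lp.ρ lp0.T.par.r lp0.T.par.P lp0.S₀ lp0.ks₀ s_24 (chanF μ (A 24)) := by
  have h := Phase.run_loop (ph := lp0) lp0_check lp0_chk2 lp0_loop hF (Phase.rho_pos lp0_check) (hm_of rfl rfl hμ) 6 (lv_18 hF hμ)
  rw [run_of_beqH (ph := lp0) rfl rfl lp0_g1 lp0_g2 rows0_ok run_24] at h
  exact h

theorem lv_30 : StOK lp0.T.Lp.ρ lp0.T.par.r lp0.T.par.P lp0.S₀ lp0.ks₀ s_30 (chanF μ (A 30)) := by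
  have h := Phase.run_loop (ph := lp0) lp0_check lp0_chk2 lp0_loop hF (Phase.rho_pos lp0_check) (hm_of rfl rfl hμ) 6 (lv_24 hF hμ)
  rw [run_of_beqH (ph := lp0) rfl rfl lp0_g1 lp0_g2 rows0_ok run_30] at h
  exact h

theorem lv_36 : StOK lp0.T.Lp.ρ lp0.T.par.r lp0.T.par.P lp0.S₀ lp0.ks₀ s_36 (chanF μ (A 36)) := by
  have h := Phase.run_loop (ph := lp0) lp0_check lp0_chk2 lp0_loop hF (Phase.rho_pos lp0_check) (hm_of rfl rfl hμ) 6 (lv_30 hF hμ)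
  rw [run_of_beqH (ph := lp0) rfl rfl lp0_g1 lp0_g2 rows0_ok run_36] at h
  exact h

theorem lv_39 : StOK lp0.T.Lp.ρ lp0.T.par.r lp0.T.par.P lp0.S₀ lp0.ks₀ s_39 (chanF μ (A 39)) := by
  have h := Phase.run_loop (ph := lp0) lp0_check lp0_chk2 lp0_loop hF (Phase.rho_pos lp0_check) (hm_of rfl rfl hμ) 3 (lv_36 hF hμ)
  rw [run_of_beqH (ph := lp0) rfl rfl lp0_g1 lp0_g2 rows0_ok run_39] at h
  exact h

theorem lv_40 : StOK lp1.T.Lp.ρ lp1.T.par.r lp1.T.par.P lp1.S₀ lp1.ks₀ s_40 (chanF μ (A 40)) := by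
  have h := Phase.run_step (ph := tr1) tr1_check tr1_chk2 hF (Phase.rho_pos tr1_check) (hm_of rfl rfl hμ) (lv_39 hF hμ)
  rw [step_of_beqH (ph := tr1) rfl rfl tr1_g1 tr1_g2 rows0_ok run_40] at h
  exact h

theorem lv_46 : StOK lp1.T.Lp.ρ lp1.T.par.r lp1.T.par.P lp1.S₀ lp1.ks₀ s_46 (chanF μ (A 46)) := by
  have h := Phase.run_loop (ph := lp1) lp1_check lp1_chk2 lp1_loop hF (Phase.rho_pos lp1_check) (hm_of rfl rfl hμ) 6 (lv_40 hF hμ)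
  rw [run_of_beqH (ph := lp1) rfl rfl lp1_g1 lp1_g2 rows1_ok run_46] at h
  exact h

theorem lv_52 : StOK lp1.T.Lp.ρ lp1.T.par.r lp1.T.par.P lp1.S₀ lp1.ks₀ s_52 (chanF μ (A 52)) := by
  have h := Phase.run_loop (ph := lp1) lp1_check lp1_chk2 lp1_loop hF (Phase.rho_pos lp1_check) (hm_of rfl rfl hμ) 6 (lv_46 hF hμ)
  rw [run_of_beqH (ph := lp1) rfl rfl lp1_g1 lp1_g2 rows1_ok run_52] at h
  exact h

theorem lv_58 : StOK lp1.T.Lp.ρ lp1.T.par.r lp1.T.par.P lp1.S₀ lp1.ks₀ s_58 (chanF μ (A 58)) := by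
  have h := Phase.run_loop (ph := lp1) lp1_check lp1_chk2 lp1_loop hF (Phase.rho_pos lp1_check) (hm_of rfl rfl hμ) 6 (lv_52 hF hμ)
  rw [run_of_beqH (ph := lp1) rfl rfl lp1_g1 lp1_g2 rows1_ok run_58] at h
  exact h

theorem lv_64 : StOK lp1.T.Lp.ρ lp1.T.par.r lp1.T.par.P lp1.S₀ lp1.ks₀ s_64 (chanF μ (A 64)) := by
  have h := Phase.run_loop (ph := lp1) lp1_check lp1_chk2 lp1_loop hF (Phase.rho_pos lp1_check) (hm_of rfl rfl hμ) 6 (lv_58 hF hμ)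
  rw [run_of_beqH (ph := lp1) rfl rfl lp1_g1 lp1_g2 rows1_ok run_64] at h
  exact h

theorem lv_70 : StOK lp1.T.Lp.ρ lp1.T.par.r lp1.T.par.P lp1.S₀ lp1.ks₀ s_70 (chanF μ (A 70)) := by
  have h := Phase.run_loop (ph := lp1) lp1_check lp1_chk2 lp1_loop hF (Phase.rho_pos lp1_check) (hm_of rfl rfl hμ) 6 (lv_64 hF hμ)
  rw [run_of_beqH (ph := lp1) rfl rfl lp1_g1 lp1_g2 rows1_ok run_70] at h
  exact h

theorem lv_76 : StOK lp1.T.Lp.ρ lp1.T.par.r lp1.T.par.P lp1.S₀ lp1.ks₀ s_76 (chanF μ (A 76)) := by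
  have h := Phase.run_loop (ph := lp1) lp1_check lp1_chk2 lp1_loop hF (Phase.rho_pos lp1_check) (hm_of rfl rfl hμ) 6 (lv_70 hF hμ)
  rw [run_of_beqH (ph := lp1) rfl rfl lp1_g1 lp1_g2 rows1_ok run_76] at h
  exact h

theorem lv_79 : StOK lp1.T.Lp.ρ lp1.T.par.r lp1.T.par.P lp1.S₀ lp1.ks₀ s_79 (chanF μ (A 79)) := by
  have h := Phase.run_loop (ph := lp1) lp1_check lp1_chk2 lp1_loop hF (Phase.rho_pos lp1_check) (hm_of rfl rfl hμ) 3 (lv_76 hF hμ)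
  rw [run_of_beqH (ph := lp1) rfl rfl lp1_g1 lp1_g2 rows1_ok run_79] at h
  exact h

theorem lv_80 : StOK lp2.T.Lp.ρ lp2.T.par.r lp2.T.par.P lp2.S₀ lp2.ks₀ s_80 (chanF μ (A 80)) := by
  have h := Phase.run_step (ph := tr2) tr2_check tr2_chk2 hF (Phase.rho_pos tr2_check) (hm_of rfl rfl hμ) (lv_79 hF hμ)
  rw [step_of_beqH (ph := tr2) rfl rfl tr2_g1 tr2_g2 rows1_ok run_80] at h
  exact h

theorem lv_86 : StOK lp2.T.Lp.ρ lp2.T.par.r lp2.T.par.P lp2.S₀ lp2.ks₀ s_86 (chanF μ (A 86)) := by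
  have h := Phase.run_loop (ph := lp2) lp2_check lp2_chk2 lp2_loop hF (Phase.rho_pos lp2_check) (hm_of rfl rfl hμ) 6 (lv_80 hF hμ)
  rw [run_of_beqH (ph := lp2) rfl rfl lp2_g1 lp2_g2 rows2_ok run_86] at h
  exact h

theorem lv_92 : StOK lp2.T.Lp.ρ lp2.T.par.r lp2.T.par.P lp2.S₀ lp2.ks₀ s_92 (chanF μ (A 92)) := by
  have h := Phase.run_loop (ph := lp2) lp2_check lp2_chk2 lp2_loop hF (Phase.rho_pos lp2_check) (hm_of rfl rfl hμ) 6 (lv_86 hF hμ)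
  rw [run_of_beqH (ph := lp2) rfl rfl lp2_g1 lp2_g2 rows2_ok run_92] at h
  exact h

theorem lv_98 : StOK lp2.T.Lp.ρ lp2.T.par.r lp2.T.par.P lp2.S₀ lp2.ks₀ s_98 (chanF μ (A 98)) := by
  have h := Phase.run_loop (ph := lp2) lp2_check lp2_chk2 lp2_loop hF (Phase.rho_pos lp2_check) (hm_of rfl rfl hμ) 6 (lv_92 hF hμ)
  rw [run_of_beqH (ph := lp2) rfl rfl lp2_g1 lp2_g2 rows2_ok run_98] at h
  exact h

theorem lv_104 : StOK lp2.T.Lp.ρ lp2.T.par.r lp2.T.par.P lp2.S₀ lp2.ks₀ s_104 (chanF μ (A 104)) := by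
  have h := Phase.run_loop (ph := lp2) lp2_check lp2_chk2 lp2_loop hF (Phase.rho_pos lp2_check) (hm_of rfl rfl hμ) 6 (lv_98 hF hμ)
  rw [run_of_beqH (ph := lp2) rfl rfl lp2_g1 lp2_g2 rows2_ok run_104] at h
  exact h

theorem lv_110 : StOK lp2.T.Lp.ρ lp2.T.par.r lp2.T.par.P lp2.S₀ lp2.ks₀ s_110 (chanF μ (A 110)) := by
  have h := Phase.run_loop (ph := lp2) lp2_check lp2_chk2 lp2_loop hF (Phase.rho_pos lp2_check) (hm_of rfl rfl hμ) 6 (lv_104 hF hμ)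
  rw [run_of_beqH (ph := lp2) rfl rfl lp2_g1 lp2_g2 rows2_ok run_110] at h
  exact h

theorem lv_116 : StOK lp2.T.Lp.ρ lp2.T.par.r lp2.T.par.P lp2.S₀ lp2.ks₀ s_116 (chanF μ (A 116)) := by
  have h := Phase.run_loop (ph := lp2) lp2_check lp2_chk2 lp2_loop hF (Phase.rho_pos lp2_check) (hm_of rfl rfl hμ) 6 (lv_110 hF hμ)
  rw [run_of_beqH (ph := lp2) rfl rfl lp2_g1 lp2_g2 rows2_ok run_116] at h
  exact h

theorem lv_122 : StOK lp2.T.Lp.ρ lp2.T.par.r lp2.T.par.P lp2.S₀ lp2.ks₀ s_122 (chanF μ (A 122)) := by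
  have h := Phase.run_loop (ph := lp2) lp2_check lp2_chk2 lp2_loop hF (Phase.rho_pos lp2_check) (hm_of rfl rfl hμ) 6 (lv_116 hF hμ)
  rw [run_of_beqH (ph := lp2) rfl rfl lp2_g1 lp2_g2 rows2_ok run_122] at h
  exact h

theorem lv_128 : StOK lp2.T.Lp.ρ lp2.T.par.r lp2.T.par.P lp2.S₀ lp2.ks₀ s_128 (chanF μ (A 128)) := by
  have h := Phase.run_loop (ph := lp2) lp2_check lp2_chk2 lp2_loop hF (Phase.rho_pos lp2_check) (hm_of rfl rfl hμ) 6 (lv_122 hF hμ)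
  rw [run_of_beqH (ph := lp2) rfl rfl lp2_g1 lp2_g2 rows2_ok run_128] at h
  exact h

theorem lv_134 : StOK lp2.T.Lp.ρ lp2.T.par.r lp2.T.par.P lp2.S₀ lp2.ks₀ s_134 (chanF μ (A 134)) := by
  have h := Phase.run_loop (ph := lp2) lp2_check lp2_chk2 lp2_loop hF (Phase.rho_pos lp2_check) (hm_of rfl rfl hμ) 6 (lv_128 hF hμ)
  rw [run_of_beqH (ph := lp2) rfl rfl lp2_g1 lp2_g2 rows2_ok run_134] at h
  exact h

theorem lv_139 : StOK lp2.T.Lp.ρ lp2.T.par.r lp2.T.par.P lp2.S₀ lp2.ks₀ s_139 (chanF μ (A 139)) := by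
  have h := Phase.run_loop (ph := lp2) lp2_check lp2_chk2 lp2_loop hF (Phase.rho_pos lp2_check) (hm_of rfl rfl hμ) 5 (lv_134 hF hμ)
  rw [run_of_beqH (ph := lp2) rfl rfl lp2_g1 lp2_g2 rows2_ok run_139] at h
  exact h

theorem final_g : A 140 (fun x => - fhat cA x) ≤ -((1085070861964380160 : ℕ) : ℝ) * (1 / (2 ^ 36 * 2 ^ 24)) := by
  have h := Phase.test_bound (ph := lp2) lp2_check lp2_chk2 hF (Phase.rho_pos lp2_check) (lv_139 hF hμ) (fhat_isTest cA_expN) fhatR_bd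
  refine h.trans ?_
  have hc := Nat.le_of_ble_eq_true last_g
  rw [Phase.parentR_eq (ph := lp2) (rows := rows2) rows2_ok] at hc
  have hc' : ((1085070861964380160 : ℕ) : ℝ) ≤ ((lp2.T.testSum aR (lp2.parent s_139).1 (lp2.parent s_139).2 : ℕ) : ℝ) := Nat.cast_le.2 hc
  have hp : (0 : ℝ) ≤ 1 / (2 ^ lp2.T.par.P * 2 ^ 24) := by positivity
  have := mul_le_mul_of_nonneg_right hc' hp
  change _ ≤ -((1085070861964380160 : ℕ) : ℝ) * (1 / (2 ^ lp2.T.par.P * 2 ^ 24))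
  linarith

end

end

end Vale.Agent.Lib.P154P.Tab.BS
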