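import Vale.Agent.Lib.P154P.Tab.BS.Chain
import Vale.Agent.Lib.P154P.BoxCert

set_option linter.defProp false

namespace Vale.Agent.Lib.P154P.Tab.BS

open Vale.Agent.Lib.P154B Vale.Agent.Lib.P154P Vale.Agent.Lib.P154 Vale.Agent.Lib.P154.Mellin Vale.Agent.Lib.P154Q

noncomputable section

theorem hU : Real.exp ((33 : ℝ) / 128) ≤ ((1491991283645572949 : ℕ) : ℝ) / 2 ^ 60 :=
  exp_le_of (by norm_num) (by norm_num) (by norm_num [Finset.sum_range_succ, Nat.factorial])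

theorem hex : (((2 ^ (60 * 16) : ℕ) : ℝ)) / ((1491991283645572949 ^ 16 : ℕ) : ℝ) ≤ Real.exp (-(((33 : ℕ) : ℝ) / ((8 : ℕ) : ℝ))) :=
  hex_of (by norm_num) hU

def poiOK : poiChk 36 33 8 (2 ^ (60 * 16)) (1491991283645572949 ^ 16) 0 1 qsD = true := by decide +kernel

/-- The levels of the tree at the corner of the box. -/
def Acorner : ℕ → (Vec → ℝ) → ℝ :=
  fun n => gwFun (poissonLaw (((33 : ℕ) : ℝ) / ((8 : ℕ) : ℝ))) (-(((991 : ℕ) : ℝ) / ((2000 : ℕ) : ℝ))) n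

theorem hF : FunSeq Acorner (((991 : ℕ) : ℝ) / ((2000 : ℕ) : ℝ)) 36 qsD :=
  funSeq_poi (by norm_num) (by norm_num) (by norm_num) hex poiOK (by norm_num) (by norm_num)

theorem corner_g : gwFun (poissonLaw (((33 : ℕ) : ℝ) / ((8 : ℕ) : ℝ))) (-(((991 : ℕ) : ℝ) / ((2000 : ℕ) : ℝ))) 140 (fun x => - fhat cA x)
    ≤ -((1085070861964380160 : ℕ) : ℝ) * (1 / (2 ^ 36 * 2 ^ 24)) :=
  final_g hF le_rfl

/-- The bound in the whole box, for the level 140. -/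
theorem ga_bound {μ : ℝ} (h0 : 0 < μ) (h1 : μ ≤ 991 / 2000) (hd : 1 / μ ^ 2 ≤ 33 / 8) :
    1 - Ex (poissonLaw (1 / μ ^ 2)) (-μ) 140 (fhat cA) ≤ 1 - 235287 / 250000 := by
  have hd0 : (0 : ℝ) ≤ 1 / μ ^ 2 := by positivity
  have hd' : (1 / μ ^ 2 : ℝ) ≤ ((33 : ℕ) : ℝ) / ((8 : ℕ) : ℝ) := by
    push_cast
    exact hd
  have hp := poisson_wprob hd0
  have hp' := poisson_wprob (hd0.trans hd')
  have := ga_box cA_expN hp hp' (poisson_stoch hd0 hd') h0.le (μ' := ((991 : ℕ) : ℝ) / ((2000 : ℕ) : ℝ)) (by push_cast; exact h1) (by norm_num) (by norm_num) (C := ((1085070861964380160 : ℕ) : ℝ) * (1 / (2 ^ 36 * 2 ^ 24))) (by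
    have e := corner_g
    rw [neg_mul] at e
    exact e)
  refine this.trans ?_
  norm_num

/-- The bound for all means of the box. -/
theorem hN_box {μ : ℝ} (h0 : (197 / 400 : ℝ) ≤ μ) (h1 : μ ≤ 991 / 2000) :
    ∃ N, 1 - Ex (poissonLaw (1 / μ ^ 2)) (-μ) N (fhat cA) ≤ 1 - Real.exp (-(9 / 125 : ℝ)) := by
  have hμ : 0 < μ := lt_of_lt_of_le (by norm_num) h0
  have h2 : (197 / 400 : ℝ) ^ 2 ≤ μ ^ 2 := pow_le_pow_left₀ (by norm_num) h0 2
  have h3 : (1 : ℝ) ≤ 33 / 8 * (197 / 400 : ℝ) ^ 2 := by norm_num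
  have hd : 1 / μ ^ 2 ≤ 33 / 8 := by
    rw [div_le_iff₀ (by positivity)]
    nlinarith
  exact ⟨140, le_one_sub_exp_of (x := 9 / 125) (C := 235287 / 250000) (by norm_num) (by norm_num) (by norm_num) (ga_bound hμ h1 hd)⟩

end

end Vale.Agent.Lib.P154P.Tab.BS
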